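import Mathlib

/-! A circle-equivariant map of `ℍ^J` has small equivariant perturbations all of whose zeros are
fixed by the circle (dimension count). -/

set_option autoImplicit false

open Set Metric Filter Topology Quaternion

namespace Crest.Agent.Lib.GR

/-- the complex part of a quaternion -/
noncomputable def cu : ℍ[ℝ] →L[ℝ] ℂ :=
  LinearMap.toContinuousLinearMap
    { toFun := fun q => ⟨q.re, q.imI⟩
      map_add' := fun _ _ => rfl
      map_smul' := fun r q => by apply Complex.ext <;> simp }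

/-- the `j`-part of a quaternion -/
noncomputable def cw : ℍ[ℝ] →L[ℝ] ℂ :=
  LinearMap.toContinuousLinearMap
    { toFun := fun q => ⟨q.imJ, q.imK⟩
      map_add' := fun _ _ => rfl
      map_smul' := fun r q => by apply Complex.ext <;> simp }

/-- the quaternion `u + w j` -/
noncomputable def toQ : ℂ × ℂ →L[ℝ] ℍ[ℝ] :=
  LinearMap.toContinuousLinearMap
    { toFun := fun p => ⟨p.1.re, p.1.im, p.2.re, p.2.im⟩
      map_add' := fun _ _ => rfl
      map_smul' := fun r q => by ext <;> simp }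

@[simp] theorem cu_re (q : ℍ[ℝ]) : (cu q).re = q.re := rfl
@[simp] theorem cu_im (q : ℍ[ℝ]) : (cu q).im = q.imI := rfl
@[simp] theorem cw_re (q : ℍ[ℝ]) : (cw q).re = q.imJ := rfl
@[simp] theorem cw_im (q : ℍ[ℝ]) : (cw q).im = q.imK := rfl
@[simp] theorem toQ_re (p : ℂ × ℂ) : (toQ p).re = p.1.re := rfl
@[simp] theorem toQ_imI (p : ℂ × ℂ) : (toQ p).imI = p.1.im := rfl
@[simp] theorem toQ_imJ (p : ℂ × ℂ) : (toQ p).imJ = p.2.re := rfl
@[simp] theorem toQ_imK (p : ℂ × ℂ) : (toQ p).imK = p.2.im := rfl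
@[simp] theorem cu_toQ (p : ℂ × ℂ) : cu (toQ p) = p.1 := rfl
@[simp] theorem cw_toQ (p : ℂ × ℂ) : cw (toQ p) = p.2 := rfl
theorem toQ_cu_cw (q : ℍ[ℝ]) : toQ (cu q, cw q) = q := rfl

/-- rotation of the `j`-part -/
noncomputable def rot (m : ℂ) (q : ℍ[ℝ]) : ℍ[ℝ] := toQ (cu q, m * cw q)

variable {J : Type} [Fintype J]

/-- the squared size of the `j`-parts -/
noncomputable def nw (t : J → ℍ[ℝ]) : ℝ := ∑ l, Complex.normSq (cw (t l))

/-- the perturbation -/
noncomputable def pert (cA : (J → ℂ) × (J → J → ℂ)) (t : J → ℍ[ℝ]) : J → ℍ[ℝ] :=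
  fun j => nw t • toQ (cA.1 j, ∑ l, cA.2 j l * cw (t l))

theorem nw_pos {t : J → ℍ[ℝ]} {k : J} (h : cw (t k) ≠ 0) : 0 < nw t :=
  Finset.sum_pos' (fun _ _ => Complex.normSq_nonneg _)
    ⟨k, Finset.mem_univ _, Complex.normSq_pos.2 h⟩

theorem contDiff_nw : ContDiff ℝ 1 (nw : (J → ℍ[ℝ]) → ℝ) := by
  unfold nw
  refine ContDiff.sum fun l _ => ?_
  have h : ContDiff ℝ 1 fun t : J → ℍ[ℝ] => cw (t l) := cw.contDiff.comp (contDiff_apply ℝ _ l)
  simp only [Complex.normSq_apply]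
  exact ((Complex.reCLM.contDiff.comp h).mul (Complex.reCLM.contDiff.comp h)).add
    ((Complex.imCLM.contDiff.comp h).mul (Complex.imCLM.contDiff.comp h))

theorem continuous_pert :
    Continuous fun p : ((J → ℂ) × (J → J → ℂ)) × (J → ℍ[ℝ]) => pert p.1 p.2 := by
  refine continuous_pi fun j => ?_
  exact (contDiff_nw.continuous.comp continuous_snd).smul (toQ.continuous.comp (by fun_prop))

theorem pert_zero (t : J → ℍ[ℝ]) : pert 0 t = 0 := by
  funext j
  have : toQ ((0 : ℂ), (0 : ℂ)) = 0 := map_zero toQ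
  simp [pert, this]

theorem pert_of_cw {t : J → ℍ[ℝ]} (h : ∀ l, cw (t l) = 0) (cA) : pert cA t = 0 := by
  funext j
  simp [pert, nw, h]

theorem hasFDerivAt_pert (cA : (J → ℂ) × (J → J → ℂ)) {t : J → ℍ[ℝ]} (h : ∀ l, cw (t l) = 0) :
    HasFDerivAt (pert cA) (0 : (J → ℍ[ℝ]) →L[ℝ] (J → ℍ[ℝ])) t := by
  have h0 : nw t = 0 := by simp [nw, h]
  have h1 : HasFDerivAt (nw : (J → ℍ[ℝ]) → ℝ) (0 : (J → ℍ[ℝ]) →L[ℝ] ℝ) t := by
    have hd := (contDiff_nw.differentiable one_ne_zero t).hasFDerivAt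
    have hm : IsLocalMin (nw : (J → ℍ[ℝ]) → ℝ) t := Eventually.of_forall fun s => by
      rw [h0]; exact Finset.sum_nonneg fun _ _ => Complex.normSq_nonneg _
    rwa [hm.fderiv_eq_zero] at hd
  have h2 : DifferentiableAt ℝ
      (fun s : J → ℍ[ℝ] => fun j => toQ (cA.1 j, ∑ l, cA.2 j l * cw (s l))) t := by
    fun_prop
  have := h1.smul h2.hasFDerivAt
  rw [h0, zero_smul, zero_add] at this
  refine this.congr_fderiv ?_
  ext1 v
  simp

theorem nw_rot {m : ℂ} (hm : Complex.normSq m = 1) (t : J → ℍ[ℝ]) :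
    nw (fun l => rot m (t l)) = nw t := by
  simp [nw, rot, hm]

theorem pert_rot {m : ℂ} (hm : Complex.normSq m = 1) (cA) (t : J → ℍ[ℝ]) :
    pert cA (fun l => rot m (t l)) = fun j => rot m (pert cA t j) := by
  funext j
  simp only [pert, nw_rot hm]
  simp only [rot, map_smul, cu_toQ, cw_toQ]
  rw [← map_smul, Prod.smul_mk, mul_smul_comm, Finset.mul_sum]
  congr 3
  exact Finset.sum_congr rfl fun l _ => by ring

section chart

variable [DecidableEq J] (k : J)

/-- the source of the `k`-th chart -/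
abbrev Src := ((J → ℂ) × ({l // l ≠ k} → ℂ) × ℝ) × (J → {l // l ≠ k} → ℂ)

/-- the point of `ℍ^J` -/
noncomputable def srcPt (s : Src k) : J → ℍ[ℝ] :=
  fun l => toQ (s.1.1 l, if h : l = k then (s.1.2.2 : ℂ) else s.1.2.1 ⟨l, h⟩)

/-- the parameter making `srcPt` a zero -/
noncomputable def srcMap (F : (J → ℍ[ℝ]) → J → ℍ[ℝ]) (s : Src k) : (J → ℂ) × (J → J → ℂ) :=
  (fun j => (nw (srcPt k s))⁻¹ • cu (F (srcPt k s) j),
    fun j l => if h : l = k then
      (s.1.2.2)⁻¹ • ((nw (srcPt k s))⁻¹ • cw (F (srcPt k s) j) - ∑ l', s.2 j l' * s.1.2.1 l')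
      else s.2 j ⟨l, h⟩)

theorem contDiff_srcPt : ContDiff ℝ 1 (srcPt k) := by
  refine contDiff_pi.2 fun l => toQ.contDiff.comp (ContDiff.prodMk (by fun_prop) ?_)
  by_cases h : l = k
  · simp only [dif_pos h]
    exact Complex.ofRealCLM.contDiff.comp (f := fun s : Src k => s.1.2.2) (by fun_prop)
  · simp only [dif_neg h]
    fun_prop

theorem contDiffAt_srcMap {F : (J → ℍ[ℝ]) → J → ℍ[ℝ]} {s : Src k} (hr : s.1.2.2 ≠ 0)
    (hF : ContDiffAt ℝ 1 F (srcPt k s)) : ContDiffAt ℝ 1 (srcMap k F) s := by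
  have h1 : ContDiffAt ℝ 1 (fun s => F (srcPt k s)) s := hF.comp s (contDiff_srcPt k).contDiffAt
  have h2 : ContDiffAt ℝ 1 (fun s => (nw (srcPt k s))⁻¹) s := by
    refine (contDiff_nw.comp (contDiff_srcPt k)).contDiffAt.inv (nw_pos (k := k) ?_).ne'
    simpa [srcPt] using hr
  have h3 : ∀ j, ContDiffAt ℝ 1 (fun s => F (srcPt k s) j) s := contDiffAt_pi.1 h1
  refine ContDiffAt.prodMk (contDiffAt_pi.2 fun j => h2.smul (cu.contDiff.contDiffAt.comp s (h3 j)))
    (contDiffAt_pi.2 fun j => contDiffAt_pi.2 fun l => ?_)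
  by_cases h : l = k
  · simp only [dif_pos h]
    have h4 : ContDiffAt ℝ 1 (fun s : Src k => s.1.2.2) s := by fun_prop
    have h5 : ContDiffAt ℝ 1 (fun s : Src k => ∑ l', s.2 j l' * s.1.2.1 l') s := by fun_prop
    exact (h4.inv hr).smul ((h2.smul (cw.contDiff.contDiffAt.comp s (h3 j))).sub h5)
  · simp only [dif_neg h]
    fun_prop

theorem finrank_src : Module.finrank ℝ (Src k) < Module.finrank ℝ ((J → ℂ) × (J → J → ℂ)) := by
  have h : Fintype.card {l // l ≠ k} + 1 = Fintype.card J := by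
    rw [Fintype.card_subtype_compl, Fintype.card_subtype_eq]
    have : 0 < Fintype.card J := Fintype.card_pos_iff.2 ⟨k⟩
    omega
  simp only [Module.finrank_prod, Module.finrank_pi_fintype, Complex.finrank_real_complex,
    Finset.sum_const, Finset.card_univ, smul_eq_mul, Module.finrank_self]
  rw [← h]
  nlinarith

end chart

theorem dense_pert {D : Set (J → ℍ[ℝ])} {F : (J → ℍ[ℝ]) → J → ℍ[ℝ]}
    (hF : ∀ t ∈ D, ContDiffAt ℝ 1 F t)
    (hD : ∀ m : ℂ, Complex.normSq m = 1 → ∀ t ∈ D, (fun l => rot m (t l)) ∈ D)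
    (hFe : ∀ m : ℂ, Complex.normSq m = 1 → ∀ t ∈ D,
      F (fun l => rot m (t l)) = fun j => rot m (F t j)) :
    Dense {cA : (J → ℂ) × (J → J → ℂ) | ∀ t ∈ D, F t = pert cA t → ∀ l, cw (t l) = 0} := by
  classical
  let S : ∀ k : J, Set (Src k) := fun k => {s | s.1.2.2 ≠ 0 ∧ srcPt k s ∈ D}
  rcases isEmpty_or_nonempty J with hJ | hJ
  · have : {cA : (J → ℂ) × (J → J → ℂ) | ∀ t ∈ D, F t = pert cA t → ∀ l, cw (t l) = 0} = univ :=
      eq_univ_of_forall fun _ _ _ _ l => hJ.elim l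
    rw [this]; exact dense_univ
  have hd : Dense (⋃ k, srcMap k F '' S k)ᶜ := by
    refine dense_compl_of_dimH_lt_finrank ?_
    rw [dimH_iUnion]
    obtain ⟨k, hk⟩ := exists_eq_ciSup_of_finite (f := fun k => dimH (srcMap k F '' S k))
    rw [← hk]
    refine (dimH_image_le_of_locally_lipschitzOn fun s hs => ?_).trans_lt ?_
    · obtain ⟨C, u, hu, hf⟩ := (contDiffAt_srcMap k hs.1 (hF _ hs.2)).exists_lipschitzOnWith
      exact ⟨C, u, mem_nhdsWithin_of_mem_nhds hu, hf⟩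
    · refine (dimH_mono (subset_univ _)).trans_lt ?_
      rw [Real.dimH_univ_eq_finrank]
      exact_mod_cast finrank_src k
  refine hd.mono fun cA hcA t ht hFt k => ?_
  by_contra hk
  apply hcA
  let m : ℂ := (‖cw (t k)‖ : ℂ) / cw (t k)
  have hm : Complex.normSq m = 1 := by
    rw [map_div₀, Complex.normSq_ofReal, Complex.normSq_eq_norm_sq, ← sq, div_self]
    exact pow_ne_zero _ (norm_ne_zero_iff.2 hk)
  have hmk : m * cw (t k) = (‖cw (t k)‖ : ℂ) := div_mul_cancel₀ _ hk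
  let t' : J → ℍ[ℝ] := fun l => rot m (t l)
  have ht' : t' ∈ D := hD m hm t ht
  have hFt' : F t' = pert cA t' := by rw [hFe m hm t ht, pert_rot hm, hFt]
  let s : Src k := ((fun l => cu (t' l), fun l => cw (t' l), ‖cw (t k)‖), fun j l => cA.2 j l)
  have hs : srcPt k s = t' := by
    funext l
    by_cases h : l = k
    · subst h
      simp only [srcPt, s, dif_pos]
      rw [← hmk]; rfl
    · simp only [srcPt, s, dif_neg h]; rfl
  have hn : nw t' ≠ 0 := by rw [nw_rot hm]; exact (nw_pos hk).ne'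
  have hr : ‖cw (t k)‖ ≠ 0 := norm_ne_zero_iff.2 hk
  refine mem_iUnion.2 ⟨k, s, ⟨hr, hs ▸ ht'⟩, ?_⟩
  refine Prod.ext (funext fun j => ?_) (funext fun j => funext fun l => ?_)
  · simp only [srcMap, hs, hFt', pert, map_smul, cu_toQ, smul_smul, inv_mul_cancel₀ hn, one_smul]
  · by_cases h : l = k
    · subst h
      simp only [srcMap, hs, hFt', pert, map_smul, cw_toQ, smul_smul, inv_mul_cancel₀ hn, one_smul,
        dif_pos, s]
      rw [Fintype.sum_eq_add_sum_subtype_ne _ l, add_sub_cancel_right]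
      have : cw (t' l) = (‖cw (t l)‖ : ℂ) := hmk
      rw [this, Complex.real_smul, Complex.ofReal_inv, mul_comm (cA.2 j l), ← mul_assoc,
        inv_mul_cancel₀ (by exact_mod_cast hr), one_mul]
    · simp only [srcMap, dif_neg h, s]

end Crest.Agent.Lib.GR
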