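import Mathlib
import Crest.Agent.Lib.Brouwer.Basic

/-! Continuation of a unique nondegenerate zero along a homotopy with compact zero set,
deduced from Brouwer's theorem on a cylinder. -/

set_option autoImplicit false

open Set Metric Filter Topology

namespace Crest.Agent.Lib.GR

theorem continuation {E : Type*} [NormedAddCommGroup E] [NormedSpace ℝ E] [FiniteDimensional ℝ E]
    {O : Set (ℝ × E)} (hO : IsOpen O) {H : ℝ × E → E} (hH : ContinuousOn H O)
    (hZ : IsCompact {p | p ∈ O ∧ p.1 ∈ Icc (0 : ℝ) 1 ∧ H p = 0}) {x₀ : E} (h0 : (0, x₀) ∈ O)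
    (hx₀ : H (0, x₀) = 0) (huniq : ∀ x, (0, x) ∈ O → H (0, x) = 0 → x = x₀)
    (hd : HasFDerivAt (fun x => H (0, x)) (ContinuousLinearMap.id ℝ E) x₀) :
    ∃ x, (1, x) ∈ O ∧ H (1, x) = 0 := by
  by_contra hcon
  push Not at hcon
  set Z := {p | p ∈ O ∧ p.1 ∈ Icc (0 : ℝ) 1 ∧ H p = 0} with hZdef
  obtain ⟨R, hR0, hR⟩ : ∃ R : ℝ, 0 < R ∧ ∀ p ∈ Z, ‖p.2 - x₀‖ < R := by
    obtain ⟨C, hC⟩ := hZ.exists_bound_of_continuousOn
      (f := fun p : ℝ × E => p.2 - x₀) (by fun_prop)
    exact ⟨|C| + 1, by positivity, fun p hp => by linarith [hC p hp, le_abs_self C]⟩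
  -- the open set carrying the cut-off functions
  set V : Set (ℝ × E) := O ∩ {p | p.1 < 1 ∧ ‖p.2 - x₀‖ < R} with hV
  have hVo : IsOpen V := hO.inter ((isOpen_lt continuous_fst continuous_const).inter
    (isOpen_lt (f := fun p : ℝ × E => ‖p.2 - x₀‖) (by fun_prop) continuous_const))
  have hZV : Z ⊆ V := by
    rintro ⟨t, x⟩ hp
    refine ⟨hp.1, lt_of_le_of_ne hp.2.1.2 ?_, hR _ hp⟩
    rintro (rfl : t = 1)
    exact hcon x hp.1 hp.2.2
  obtain ⟨φ, hφ1, -, hφs, hφI⟩ := exists_continuousMap_one_of_isCompact_subset_isOpen hZ hVo hZV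
  -- the small neighbourhood of the trivial zero
  obtain ⟨ε, hε0, hε⟩ : ∃ ε > 0, ∀ x, ‖x - x₀‖ < ε → ‖H (0, x) - (x - x₀)‖ ≤ 1 / 2 * ‖x - x₀‖ := by
    have := (hasFDerivAt_iff_isLittleO.1 hd).def (c := 1 / 2) (by norm_num)
    obtain ⟨ε, hε0, hε⟩ := Metric.eventually_nhds_iff.1 this
    refine ⟨ε, hε0, fun x hx => ?_⟩
    have := hε (y := x) (by rwa [dist_eq_norm])
    simpa [hx₀] using this
  have hz0 : ((0 : ℝ), x₀) ∈ Z := ⟨h0, ⟨le_rfl, zero_le_one⟩, hx₀⟩
  obtain ⟨ψ, hψ1, -, hψs, hψI⟩ := exists_continuousMap_one_of_isCompact_subset_isOpen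
    (isCompact_singleton (x := ((0 : ℝ), x₀)))
    (hVo.inter (isOpen_lt (f := fun p : ℝ × E => ‖p.2 - x₀‖) (by fun_prop)
      (continuous_const (y := ε))))
    (singleton_subset_iff.2 ⟨hZV hz0, by simpa using hε0⟩)
  have hψ0 : ψ (0, x₀) = 1 := hψ1 rfl
  have hφV : ∀ p, φ p ≠ 0 → p ∈ V := fun p hp => hφs (subset_tsupport _ hp)
  have hψV : ∀ p, ψ p ≠ 0 → p ∈ V ∧ ‖p.2 - x₀‖ < ε := fun p hp => hψs (subset_tsupport _ hp)
  have hφH : Continuous fun p => φ p • H p := by
    refine ContinuousOn.continuous_of_tsupport_subset (φ.continuous.continuousOn.smul hH) hO ?_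
    exact (tsupport_smul_subset_left _ _).trans (hφs.trans inter_subset_left)
  let c : ℝ × E → ℝ × E := fun w => ((1 - w.1) / 2, x₀ + R • w.2)
  have hc : Continuous c := by fun_prop
  have hc2 : ∀ w, (c w).2 - x₀ = R • w.2 := fun w => by simp [c]
  have hnorm : ∀ w : ℝ × E, ‖w‖ = 1 → c w ∈ V → w.1 = 1 := by
    intro w hw hV'
    have h1 : (1 - w.1) / 2 < 1 := hV'.2.1
    have h2 : ‖(c w).2 - x₀‖ < R := hV'.2.2
    rw [hc2, norm_smul, Real.norm_of_nonneg hR0.le] at h2
    have h3 : ‖w.2‖ < 1 := by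
      by_contra h
      push Not at h
      nlinarith
    rw [Prod.norm_def] at hw
    have h4 : ‖w.1‖ = 1 := by
      rcases max_choice ‖w.1‖ ‖w.2‖ with h | h
      · rw [← h, hw]
      · rw [h] at hw; linarith
    rcases (abs_eq zero_le_one).1 h4 with h | h
    · exact h
    · linarith
  refine Brouwer.false_of_homotopy (W := ℝ × E) (fun w => (2 * φ (c w) - 1, φ (c w) • H (c w)))
    (fun w => (2 * ψ (c w) - 1, ψ (c w) • w.2)) ?_ ?_ ?_ ?_ ?_
  · exact (Continuous.prodMk (by fun_prop) (hφH.comp hc)).continuousOn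
  · exact (Continuous.prodMk (by fun_prop) (by fun_prop)).continuousOn
  · intro w hw h
    have h1 : 2 * φ (c w) - 1 = 0 := congrArg Prod.fst h
    have h2 : φ (c w) • H (c w) = 0 := congrArg Prod.snd h
    have h3 : φ (c w) ≠ 0 := by intro e; rw [e] at h1; norm_num at h1
    have h4 : |w.1| ≤ 1 := by
      rw [mem_closedBall, dist_zero_right] at hw
      exact (norm_fst_le w).trans hw
    rw [abs_le] at h4
    have h5 : c w ∈ Z := ⟨(hφV _ h3).1, ⟨by simp only [c]; linarith, by simp only [c]; linarith⟩,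
      (smul_eq_zero.1 h2).resolve_left h3⟩
    have h6 : φ (c w) = 1 := hφ1 h5
    rw [h6] at h1; norm_num at h1
  · intro w hw r hr h
    have h1 : 2 * φ (c w) - 1 + r * (2 * ψ (c w) - 1) = 0 := congrArg Prod.fst h
    have h2 : φ (c w) • H (c w) + r • ψ (c w) • w.2 = 0 := congrArg Prod.snd h
    have hc0 : c w ∈ V → c w = (0, (c w).2) := fun hv => by
      refine Prod.ext ?_ rfl
      simp [c, hnorm w hw hv]
    by_cases hψw : ψ (c w) = 0
    · have h3 : φ (c w) ≠ 0 := by
        intro e; rw [e, hψw] at h1; linarith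
      rw [hψw, zero_smul, smul_zero, add_zero] at h2
      have h4 := (smul_eq_zero.1 h2).resolve_left h3
      have h5 := hc0 (hφV _ h3)
      have h6 := (hφV _ h3).1
      rw [h5] at h4 h6
      rw [h5, huniq _ h6 h4, hψ0] at hψw
      exact one_ne_zero hψw
    · obtain ⟨hv, hs⟩ := hψV _ hψw
      have h5 := hc0 hv
      have h6 := hε _ hs
      rw [← h5, hc2] at h6
      by_cases hw2 : w.2 = 0
      · have h7 : c w = (0, x₀) := by rw [h5]; simp [c, hw2]
        have h8 : φ (0, x₀) = 1 := hφ1 hz0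
        rw [h7, hψ0, h8] at h1
        linarith
      · have h7 : (φ (c w) * R + r * ψ (c w)) • w.2 = -(φ (c w) • (H (c w) - R • w.2)) := by
          rw [smul_sub, neg_sub, add_smul, mul_smul, mul_smul, eq_sub_iff_add_eq, add_assoc,
            add_comm (r • _), h2, add_zero]
        have hφ0 := (hφI (c w)).1
        have hψ0' := (hψI (c w)).1
        have h8 := congrArg norm h7
        rw [norm_neg, norm_smul, norm_smul, Real.norm_of_nonneg (by positivity),
          Real.norm_of_nonneg hφ0] at h8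
        rw [norm_smul, Real.norm_of_nonneg hR0.le] at h6
        have hn : 0 < ‖w.2‖ := norm_pos_iff.2 hw2
        have h9 : (φ (c w) * R + r * ψ (c w)) * ‖w.2‖ ≤ φ (c w) * (1 / 2 * (R * ‖w.2‖)) :=
          h8 ▸ mul_le_mul_of_nonneg_left h6 hφ0
        have h10 : φ (c w) * R + r * ψ (c w) ≤ φ (c w) * R / 2 := by
          by_contra hh
          push Not at hh
          nlinarith
        have h11 : 0 ≤ r * ψ (c w) := by positivity
        have h12 : 0 ≤ φ (c w) * R := by positivity
        have h13 : φ (c w) = 0 := by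
          have : φ (c w) * R = 0 := by linarith
          exact (mul_eq_zero.1 this).resolve_right hR0.ne'
        have h14 : r = 0 := by
          have : r * ψ (c w) = 0 := by linarith
          exact (mul_eq_zero.1 this).resolve_right hψw
        rw [h13, h14] at h1
        norm_num at h1
  · intro w hw r hr h
    have h1 : 2 * ψ (c w) - 1 + r * w.1 = 0 := congrArg Prod.fst h
    have h2 : ψ (c w) • w.2 + r • w.2 = 0 := congrArg Prod.snd h
    rw [← add_smul, smul_eq_zero] at h2
    have hψ0' := (hψI (c w)).1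
    rcases h2 with h2 | h2
    · have h3 : ψ (c w) = 0 := by linarith
      have h4 : r = 0 := by linarith
      rw [h3, h4] at h1
      norm_num at h1
    · have h4 : ‖w.1‖ = 1 := by rw [← hw, Prod.norm_def, h2, norm_zero, max_eq_left (norm_nonneg _)]
      rcases (abs_eq zero_le_one).1 h4 with h5 | h5
      · have h7 : c w = (0, x₀) := by simp [c, h2, h5]
        rw [h7, hψ0, h5] at h1
        linarith
      · have h7 : ψ (c w) = 0 := by
          by_contra hh
          have := hnorm w hw (hψV _ hh).1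
          linarith
        rw [h7, h5] at h1
        linarith

end Crest.Agent.Lib.GR
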