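import Mathlib

/-! Evaluation of free group words at nonzero quaternions: continuity, smoothness, derivative. -/

set_option autoImplicit false

open Set Filter Topology Quaternion

namespace Crest.Agent.Lib.GR

open Classical in
/-- the exponent sum of the letter `s` in the word `w` -/
noncomputable def expo {α : Type} (w : FreeGroup α) (s : α) : ℤ :=
  (FreeGroup.lift (fun a => if a = s then Multiplicative.ofAdd (1 : ℤ) else 1) w).toAdd

theorem expo_one {α : Type} (s : α) : expo 1 s = 0 := by simp [expo]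

theorem expo_mul {α : Type} (w w' : FreeGroup α) (s : α) :
    expo (w * w') s = expo w s + expo w' s := by simp [expo]

theorem expo_inv {α : Type} (w : FreeGroup α) (s : α) : expo w⁻¹ s = -expo w s := by simp [expo]

theorem expo_of {α : Type} [DecidableEq α] (a s : α) :
    expo (FreeGroup.of a) s = if a = s then 1 else 0 := by
  by_cases h : a = s <;> simp [expo, h]

/-- evaluation in a commutative group only depends on the exponent sums -/
theorem lift_eq_prod {U K M : Type} [Fintype U] [CommGroup M] (v : U ⊕ K → M)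
    (hv : ∀ k, v (.inr k) = 1) (w : FreeGroup (U ⊕ K)) :
    FreeGroup.lift v w = ∏ u, v (.inl u) ^ expo w (.inl u) := by
  classical
  induction w using FreeGroup.induction_on with
  | C1 => simp [expo_one]
  | of s =>
    rcases s with u | k
    · simp [expo_of, Finset.prod_ite_eq]
    · simp [expo_of, hv]
  | inv_of s ih => rw [map_inv, ih]; simp [expo_inv]
  | mul u v ihu ihv => rw [map_mul, ihu, ihv]; simp [expo_mul, zpow_add, Finset.prod_mul_distrib]

open Classical in
/-- a nonzero quaternion as a unit -/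
noncomputable def un (q : ℍ[ℝ]) : ℍ[ℝ]ˣ := if h : q = 0 then 1 else Units.mk0 q h

theorem un_val {q : ℍ[ℝ]} (h : q ≠ 0) : (un q : ℍ[ℝ]) = q := by simp [un, h]

theorem un_unit (u : ℍ[ℝ]ˣ) : un (u : ℍ[ℝ]) = u := Units.ext (un_val u.ne_zero)

/-- evaluation of a word -/
noncomputable def ev {α : Type} (v : α → ℍ[ℝ]) (w : FreeGroup α) : ℍ[ℝ] :=
  (FreeGroup.lift (fun a => un (v a)) w : ℍ[ℝ]ˣ)

variable {α : Type}

theorem ev_ne_zero (v : α → ℍ[ℝ]) (w : FreeGroup α) : ev v w ≠ 0 := Units.ne_zero _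

theorem ev_one (v : α → ℍ[ℝ]) : ev v 1 = 1 := by simp [ev]

theorem ev_mul (v : α → ℍ[ℝ]) (w w' : FreeGroup α) : ev v (w * w') = ev v w * ev v w' := by
  simp [ev]

theorem ev_inv (v : α → ℍ[ℝ]) (w : FreeGroup α) : ev v w⁻¹ = (ev v w)⁻¹ := by simp [ev]

theorem ev_of {v : α → ℍ[ℝ]} {a : α} (h : v a ≠ 0) : ev v (FreeGroup.of a) = v a := by
  simp [ev, un_val h]

/-- evaluation at the image of a homomorphism -/
theorem ev_hom {M : Type} [Group M] (f : M →* ℍ[ℝ]ˣ) (v : α → M) (w : FreeGroup α) :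
    ev (fun a => (f (v a) : ℍ[ℝ])) w = f (FreeGroup.lift v w) := by
  have : FreeGroup.lift (fun a => un (f (v a) : ℍ[ℝ])) = f.comp (FreeGroup.lift v) := by
    ext1 a; simp [un_unit]
  rw [ev, this]; rfl

theorem ev_conj (m : ℍ[ℝ]ˣ) {v : α → ℍ[ℝ]} (hv : ∀ a, v a ≠ 0) (w : FreeGroup α) :
    ev (fun a => m * v a * (m⁻¹ : ℍ[ℝ]ˣ)) w = m * ev v w * (m⁻¹ : ℍ[ℝ]ˣ) := by
  have := ev_hom (MulAut.conj m).toMonoidHom (fun a => un (v a)) w
  simpa [un_val (hv _), ev] using this

theorem continuousAt_ev {X : Type*} [TopologicalSpace X] {v : X → α → ℍ[ℝ]} {x : X}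
    (hv : ∀ a, ContinuousAt (fun y => v y a) x) (h0 : ∀ a, v x a ≠ 0) (w : FreeGroup α) :
    ContinuousAt (fun y => ev (v y) w) x := by
  induction w using FreeGroup.induction_on with
  | C1 => simpa only [ev_one] using continuousAt_const
  | of a =>
    exact (hv a).congr (((hv a).eventually_ne (h0 a)).mono fun y hy => (ev_of hy).symm)
  | inv_of s ih => simp only [ev_inv]; exact ih.inv₀ (ev_ne_zero _ _)
  | mul u v ihu ihv => simp only [ev_mul]; exact ihu.mul ihv

variable {E : Type} [NormedAddCommGroup E] [NormedSpace ℝ E]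

theorem contDiffAt_ev {v : E → α → ℍ[ℝ]} {x : E}
    (hv : ∀ a, ContDiffAt ℝ 1 (fun y => v y a) x) (h0 : ∀ a, v x a ≠ 0) (w : FreeGroup α) :
    ContDiffAt ℝ 1 (fun y => ev (v y) w) x := by
  induction w using FreeGroup.induction_on with
  | C1 => simpa only [ev_one] using contDiffAt_const
  | of a =>
    exact (hv a).congr_of_eventuallyEq
      (((hv a).continuousAt.eventually_ne (h0 a)).mono fun y hy => ev_of hy)
  | inv_of s ih =>
    have h : ContDiffAt ℝ 1 (Inv.inv : ℍ[ℝ] → ℍ[ℝ]) (ev (v x) (FreeGroup.of s)) := by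
      simpa only [Ring.inverse_eq_inv'] using!
        contDiffAt_ringInverse ℝ (Units.mk0 _ (ev_ne_zero (v x) (FreeGroup.of s)))
    simp only [ev_inv]; exact h.comp x ih
  | mul u v ihu ihv => simpa only [ev_mul] using ihu.mul ihv

theorem hasFDerivAt_ev {v : E → α → ℍ[ℝ]} {x : E} {D : α → E →L[ℝ] ℍ[ℝ]}
    (hv : ∀ a, HasFDerivAt (fun y => v y a) (D a) x) (h0 : ∀ a, v x a = 1) (w : FreeGroup α) :
    ev (v x) w = 1 ∧ HasFDerivAt (fun y => ev (v y) w)
      (FreeGroup.lift (fun a => Multiplicative.ofAdd (D a)) w).toAdd x := by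
  induction w using FreeGroup.induction_on with
  | C1 => simpa only [ev_one, map_one, toAdd_one, true_and] using hasFDerivAt_const _ _
  | of a =>
    have h1 : v x a ≠ 0 := h0 a ▸ one_ne_zero
    refine ⟨(ev_of h1).trans (h0 a), ?_⟩
    rw [FreeGroup.lift_apply_of, toAdd_ofAdd]
    exact (hv a).congr_of_eventuallyEq
      (((hv a).continuousAt.eventually_ne h1).mono fun y hy => ev_of hy)
  | inv_of s ih =>
    refine ⟨by rw [ev_inv, ih.1, inv_one], ?_⟩
    have h := (hasFDerivAt_inv' (𝕜 := ℝ) (ev_ne_zero (v x) (FreeGroup.of s))).comp x ih.2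
    simp only [ev_inv, map_inv, toAdd_inv]
    refine h.congr_fderiv ?_
    ext1 y
    simp [ih.1]
  | mul u v ihu ihv =>
    refine ⟨by rw [ev_mul, ihu.1, ihv.1, mul_one], ?_⟩
    simp only [ev_mul, map_mul, toAdd_mul]
    refine (ihu.2.mul' ihv.2).congr_fderiv ?_
    ext1 y
    simp [ihu.1, ihv.1, add_comm]

end Crest.Agent.Lib.GR
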