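import Crest.Agent.Lib.GR.Cont
import Crest.Agent.Lib.GR.Circle
import Crest.Agent.Lib.GR.Words

/-! Localized Gerstenhaber–Rothaus theorem over the unit quaternions. -/

set_option autoImplicit false

open Set Metric Filter Topology Quaternion

namespace Crest.Agent.Lib.GR

theorem norm_unitary (u : unitary ℍ[ℝ]) : ‖(u : ℍ[ℝ])‖ = 1 := CStarRing.norm_coe_unitary u

theorem unitary_ne_zero (u : unitary ℍ[ℝ]) : (u : ℍ[ℝ]) ≠ 0 :=
  norm_ne_zero_iff.1 (by rw [norm_unitary]; exact one_ne_zero)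

theorem mem_unitary_of_norm {q : ℍ[ℝ]} (h : ‖q‖ = 1) : q ∈ unitary ℍ[ℝ] := by
  have : normSq q = 1 := by rw [normSq_eq_norm_mul_self, h, mul_one]
  exact ⟨by rw [star_mul_self, this]; rfl, by rw [self_mul_star, this]; rfl⟩

theorem ev_unitary {α : Type} (v : α → unitary ℍ[ℝ]) (w : FreeGroup α) :
    ev (fun a => (v a : ℍ[ℝ])) w = (FreeGroup.lift v w : unitary ℍ[ℝ]) :=
  ev_hom Unitary.toUnits v w

/-- a complex number as a quaternion -/
noncomputable def cq : ℂ →* ℍ[ℝ] where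
  toFun z := toQ (z, 0)
  map_one' := rfl
  map_mul' z z' := by ext <;> simp

theorem exists_conj_eq_rot {m : ℂ} (hm : Complex.normSq m = 1) :
    ∃ μ : ℍ[ℝ]ˣ, ‖(μ : ℍ[ℝ])‖ = 1 ∧ (∀ q, rot m q = μ * q * (μ⁻¹ : ℍ[ℝ]ˣ)) := by
  obtain ⟨z, hz⟩ := IsAlgClosed.exists_pow_nat_eq m two_pos
  have h1 : Complex.normSq z = 1 := by
    rw [← hz, map_pow] at hm
    nlinarith [Complex.normSq_nonneg z]
  have h2 : z.re * z.re + z.im * z.im = 1 := h1
  have h3 : normSq (cq z) = 1 := by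
    rw [normSq_def']; simp [cq]; nlinarith
  have h4 : ‖cq z‖ = 1 := by
    rw [normSq_eq_norm_mul_self] at h3
    nlinarith [norm_nonneg (cq z)]
  refine ⟨Unitary.toUnits ⟨cq z, mem_unitary_of_norm h4⟩, h4, fun q => ?_⟩
  change _ = cq z * q * star (cq z)
  subst hz
  ext <;> simp [rot, cq, pow_two]
  · linear_combination (-q.re) * h2
  · linear_combination (-q.imI) * h2
  · ring
  · ring

section square

variable {J K U : Type} [Fintype J] [Finite U]

/-- the square case -/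
theorem exists_solution_square (V : J → FreeGroup (J ⊕ K)) (S : U → FreeGroup (J ⊕ K))
    (hV : ∀ (M : Type) [CommGroup M] (v : J ⊕ K → M), (∀ k, v (.inr k) = 1) →
      ∀ j, FreeGroup.lift v (V j) = v (.inl j))
    (a : ℝ → K → unitary ℍ[ℝ]) (ha : ∀ k, Continuous fun t => a t k) (ha0 : a 0 = 1)
    (δ : ℝ) (hδ : 0 < δ)
    (hband : ∀ t ∈ Icc (0 : ℝ) 1, ∀ y : J → unitary ℍ[ℝ],
      (∀ j, FreeGroup.lift (Sum.elim y (a t)) (V j) = 1) →
      (∀ z, ‖(FreeGroup.lift (Sum.elim y (a t)) (S z) : ℍ[ℝ]) - 1‖ ≤ δ) →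
      ∀ z, ‖(FreeGroup.lift (Sum.elim y (a t)) (S z) : ℍ[ℝ]) - 1‖ < δ) :
    ∃ y : J → unitary ℍ[ℝ], (∀ j, FreeGroup.lift (Sum.elim y (a 1)) (V j) = 1) ∧
      ∀ z, ‖(FreeGroup.lift (Sum.elim y (a 1)) (S z) : ℍ[ℝ]) - 1‖ < δ := by
  classical
  let v : ℝ × (J → ℍ[ℝ]) → J ⊕ K → ℍ[ℝ] := fun p => Sum.elim p.2 fun k => a p.1 k
  let F : ℝ × (J → ℍ[ℝ]) → J → ℍ[ℝ] := fun p j => ev (v p) (V j) - 1
  let D : Set (ℝ × (J → ℍ[ℝ])) := {p | ∀ j, p.2 j ≠ 0}
  have hDo : IsOpen D := by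
    simp only [D, ofPred_forall]
    exact isOpen_iInter_of_finite fun j => isOpen_ne_fun (by fun_prop) continuous_const
  have hv0 : ∀ p ∈ D, ∀ s, v p s ≠ 0 := by
    rintro p hp (j | k)
    · exact hp j
    · exact unitary_ne_zero _
  have hvc : ∀ s, Continuous fun p => v p s := by
    rintro (j | k)
    · exact (continuous_apply j).comp continuous_snd
    · exact (continuous_subtype_val.comp (ha k)).comp continuous_fst
  have hev : ∀ w, ContinuousOn (fun p => ev (v p) w) D := fun w p hp =>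
    (continuousAt_ev (fun s => (hvc s).continuousAt) (hv0 p hp) w).continuousWithinAt
  have hFc : ContinuousOn F D := continuousOn_pi.2 fun j => (hev _).sub continuousOn_const
  -- zeros of `F` are unitary
  have hunit : ∀ p ∈ D, F p = 0 → ∃ y : J → unitary ℍ[ℝ], (∀ j, (y j : ℍ[ℝ]) = p.2 j) ∧
      ∀ w, ev (v p) w = (FreeGroup.lift (Sum.elim y (a p.1)) w : unitary ℍ[ℝ]) := by
    intro p hp hF
    have hn : ∀ j, ‖p.2 j‖ = 1 := by
      intro j
      let ν : ℍ[ℝ]ˣ →* ℝˣ := Units.map (normHom : ℍ[ℝ] →*₀ ℝ).toMonoidHom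
      have h1 := hV ℝˣ (fun s => ν (un (v p s))) (fun k => Units.ext (by
        simp [ν, v, un_val (unitary_ne_zero _)])) j
      have h2 : FreeGroup.lift (fun s => ν (un (v p s))) =
          ν.comp (FreeGroup.lift fun s => un (v p s)) := by ext1 s; simp
      have h3 : ev (v p) (V j) = 1 := sub_eq_zero.1 (congrFun hF j)
      have h4 : FreeGroup.lift (fun s => un (v p s)) (V j) = 1 := Units.ext h3
      rw [h2, MonoidHom.comp_apply, h4, map_one] at h1
      have h5 := congrArg Units.val h1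
      simpa [ν, v, un_val (hp j)] using h5.symm
    refine ⟨fun j => ⟨p.2 j, mem_unitary_of_norm (hn j)⟩, fun _ => rfl, fun w => ?_⟩
    rw [← ev_unitary]
    congr 1
    funext s
    rcases s with j | k <;> rfl
  let O : Set (ℝ × (J → ℍ[ℝ])) :=
    {p | (∀ j, 1 / 2 < ‖p.2 j‖ ∧ ‖p.2 j‖ < 2) ∧ ∀ z, ‖ev (v p) (S z) - 1‖ < δ}
  let C : Set (ℝ × (J → ℍ[ℝ])) :=
    {p | (p.1 ∈ Icc (0 : ℝ) 1 ∧ ∀ j, 1 / 2 ≤ ‖p.2 j‖ ∧ ‖p.2 j‖ ≤ 2) ∧
      ∀ z, ‖ev (v p) (S z) - 1‖ ≤ δ}
  have hOD : O ⊆ D := fun p hp j e => by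
    have := (hp.1 j).1
    rw [e, norm_zero] at this
    linarith
  have hCD : {p : ℝ × (J → ℍ[ℝ]) | p.1 ∈ Icc (0 : ℝ) 1 ∧ ∀ j, 1 / 2 ≤ ‖p.2 j‖ ∧ ‖p.2 j‖ ≤ 2} ⊆ D :=
    fun p hp j e => by
      have := (hp.2 j).1
      rw [e, norm_zero] at this
      linarith
  have hO : IsOpen O := by
    refine isOpen_iff_mem_nhds.2 fun p hp => ?_
    refine Filter.Eventually.and (eventually_all.2 fun j => ?_) (eventually_all.2 fun z => ?_)
    · have hc : Continuous fun p : ℝ × (J → ℍ[ℝ]) => ‖p.2 j‖ := by fun_prop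
      exact (continuousAt_const.eventually_lt hc.continuousAt (hp.1 j).1).and
        (hc.continuousAt.eventually_lt continuousAt_const (hp.1 j).2)
    · exact (((hev (S z)).continuousAt (hDo.mem_nhds (hOD hp))).sub
        continuousAt_const).norm.eventually_lt continuousAt_const (hp.2 z)
  have hC : IsCompact C := by
    have h1 : IsCompact
        {p : ℝ × (J → ℍ[ℝ]) | p.1 ∈ Icc (0 : ℝ) 1 ∧ ∀ j, 1 / 2 ≤ ‖p.2 j‖ ∧ ‖p.2 j‖ ≤ 2} := by
      refine ((isCompact_Icc (a := (0 : ℝ)) (b := 1)).prod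
        (isCompact_closedBall (0 : J → ℍ[ℝ]) 2)).of_isClosed_subset ?_ ?_
      · refine (isClosed_Icc.preimage continuous_fst).inter
          (s₂ := {p : ℝ × (J → ℍ[ℝ]) | ∀ j, 1 / 2 ≤ ‖p.2 j‖ ∧ ‖p.2 j‖ ≤ 2}) ?_
        simp only [ofPred_forall]
        exact isClosed_iInter fun j => isClosed_Icc.preimage
          (f := fun p : ℝ × (J → ℍ[ℝ]) => ‖p.2 j‖) (by fun_prop)
      · exact fun p hp => ⟨hp.1, mem_closedBall_zero_iff.2
          ((pi_norm_le_iff_of_nonneg zero_le_two).2 fun j => (hp.2 j).2)⟩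
    refine h1.of_isClosed_subset ?_ fun p hp => hp.1
    have : C = {p : ℝ × (J → ℍ[ℝ]) | p.1 ∈ Icc (0 : ℝ) 1 ∧ ∀ j, 1 / 2 ≤ ‖p.2 j‖ ∧ ‖p.2 j‖ ≤ 2} ∩
        (fun p z => ‖ev (v p) (S z) - 1‖) ⁻¹' (Set.pi univ fun _ => Iic δ) := by
      ext p; simp [C, Pi.le_def]
    rw [this]
    exact (continuousOn_pi.2 fun z => (((hev _).mono hCD).sub
      continuousOn_const).norm).preimage_isClosed_of_isClosed h1.isClosed
      (isClosed_set_pi fun _ _ => isClosed_Iic)
  have hFO : ∀ p ∈ C, F p = 0 → p ∈ O := by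
    intro p hp hF
    obtain ⟨y, hy, hw⟩ := hunit p (hCD hp.1) hF
    refine ⟨fun j => by rw [← hy, norm_unitary]; norm_num, fun z => ?_⟩
    rw [hw]
    refine hband p.1 hp.1.1 y (fun j => Subtype.ext ?_) (fun z => hw _ ▸ hp.2 z) z
    rw [← hw]
    exact sub_eq_zero.1 (congrFun hF j)
  -- the perturbation
  have hv00 : ∀ t : J → ℍ[ℝ], v (0, t) = Sum.elim t fun _ => 1 := by
    intro t
    funext s
    rcases s with j | k
    · rfl
    · simp [v, ha0]
  have hdense := dense_pert (D := {t | ∀ j, t j ≠ 0}) (F := fun t => F (0, t))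
    (fun t ht => contDiffAt_pi.2 fun j => (contDiffAt_ev (v := fun t => v (0, t)) (by
      rintro (j | k)
      · exact contDiffAt_apply ℝ _ j t
      · exact contDiffAt_const (c := (a 0 k : ℍ[ℝ]))) (hv0 (0, t) ht) _).sub contDiffAt_const)
    (fun m hm t ht l => by
      obtain ⟨μ, -, hμ⟩ := exists_conj_eq_rot hm
      change rot m (t l) ≠ 0
      rw [hμ]
      exact mul_ne_zero (mul_ne_zero μ.ne_zero (ht l)) (Units.ne_zero _))
    (fun m hm t ht => by
      obtain ⟨μ, -, hμ⟩ := exists_conj_eq_rot hm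
      funext j
      simp only [F, hμ]
      rw [mul_sub, sub_mul, ← ev_conj μ (hv0 (0, t) ht), mul_one, Units.mul_inv, hv00, hv00]
      congr 2
      funext s
      rcases s with j | k
      · rfl
      · simp)
  have hnear : ∀ᶠ cA in 𝓝 (0 : (J → ℂ) × (J → J → ℂ)), ∀ p ∈ C \ O,
      F p - (1 - p.1) • pert cA p.2 ≠ 0 := by
    refine (hC.diff hO).eventually_forall_of_forall_eventually fun p hp => ?_
    have h1 : ContinuousAt (fun z : ((J → ℂ) × (J → J → ℂ)) × (ℝ × (J → ℍ[ℝ])) =>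
        F z.2 - (1 - z.2.1) • pert z.1 z.2.2) (0, p) := by
      refine ((hFc.continuousAt (hDo.mem_nhds (hCD hp.1.1))).comp_of_eq continuousAt_snd rfl).sub
        (Continuous.continuousAt (Continuous.smul (continuous_const.sub continuous_snd.fst) ?_))
      exact continuous_pert.comp (continuous_fst.prodMk continuous_snd.snd)
    refine h1.eventually_ne ?_
    simp only [pert_zero, smul_zero, sub_zero]
    exact fun h => hp.2 (hFO p hp.1 h)
  obtain ⟨cA, hcA2, hcA1⟩ := hdense.inter_nhds_nonempty hnear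
  let H : ℝ × (J → ℍ[ℝ]) → J → ℍ[ℝ] := fun p => F p - (1 - p.1) • pert cA p.2
  have hHc : ContinuousOn H D := hFc.sub (Continuous.continuousOn (Continuous.smul
    (continuous_const.sub continuous_fst)
    (continuous_pert.comp (continuous_const.prodMk continuous_snd))))
  have hcw1 : ∀ l : J, cw ((1 : J → ℍ[ℝ]) l) = 0 := fun _ => rfl
  have hder := fun w => hasFDerivAt_ev (v := fun t : J → ℍ[ℝ] => v (0, t)) (x := 1)
    (D := Sum.elim (fun j => ContinuousLinearMap.proj j) fun _ => 0) (by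
      rintro (j | k)
      · exact hasFDerivAt_apply j _
      · exact hasFDerivAt_const (a 0 k : ℍ[ℝ]) _) (by
      rw [hv00]
      rintro (j | k) <;> rfl) w
  obtain ⟨t, ht, hHt⟩ := continuation (O := O) (H := H) hO (hHc.mono hOD) (x₀ := 1) (by
      have : {p | p ∈ O ∧ p.1 ∈ Icc (0 : ℝ) 1 ∧ H p = 0} = C ∩ H ⁻¹' {0} := by
        ext p
        refine ⟨fun hp => ⟨⟨⟨hp.2.1, fun j => ⟨(hp.1.1 j).1.le, (hp.1.1 j).2.le⟩⟩,
          fun z => (hp.1.2 z).le⟩, hp.2.2⟩, fun hp => ⟨?_, hp.1.1.1, hp.2⟩⟩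
        by_contra h
        exact hcA1 p ⟨hp.1, h⟩ hp.2
      rw [this]
      exact hC.of_isClosed_subset ((hHc.mono fun p hp => hCD hp.1).preimage_isClosed_of_isClosed
        hC.isClosed isClosed_singleton) inter_subset_left)
    ⟨fun j => by simp; norm_num, fun z => by rw [(hder _).1]; simpa using hδ⟩
    (by
      funext j
      simp [H, F, (hder _).1, pert_of_cw hcw1])
    (by
      intro t ht hH
      have h1 : F (0, t) = pert cA t := by simpa [H, sub_eq_zero] using hH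
      have h2 := hcA2 t (hOD ht) h1
      rw [pert_of_cw h2] at h1
      funext j
      have h3 : ∀ l, cu (t l) ≠ 0 := fun l e => hOD ht l (by
        change t l = 0
        rw [← toQ_cu_cw (t l), e, h2]; rfl)
      let u : J ⊕ K → ℂˣ := Sum.elim (fun l => Units.mk0 _ (h3 l)) fun _ => 1
      have h4 := ev_hom (Units.map cq) u (V j)
      rw [hV ℂˣ u (fun _ => rfl)] at h4
      have h5 : ∀ l, cq (cu (t l)) = t l := fun l => by
        conv_rhs => rw [← toQ_cu_cw (t l), h2]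
        rfl
      have h6 : (fun s => ((Units.map cq (u s) : ℍ[ℝ]ˣ) : ℍ[ℝ])) = v (0, t) := by
        rw [hv00]
        funext s
        rcases s with l | k
        · exact h5 l
        · simp [u]
      rw [h6, sub_eq_zero.1 (congrFun h1 j)] at h4
      exact (h4.trans (h5 j)).symm)
    (by
      have h1 : HasFDerivAt (fun t => F (0, t)) (ContinuousLinearMap.id ℝ (J → ℍ[ℝ])) 1 := by
        refine hasFDerivAt_pi'.2 fun j => ?_
        have h2 := (hder (V j)).2
        rw [hV _ _ (fun _ => rfl)] at h2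
        exact h2.sub_const 1
      simpa [H] using h1.sub (hasFDerivAt_pert cA hcw1))
  have hF : F (1, t) = 0 := by simpa [H] using hHt
  obtain ⟨y, hy, hw⟩ := hunit _ (hOD ht) hF
  refine ⟨y, fun j => Subtype.ext ?_, fun z => hw _ ▸ ht.2 z⟩
  rw [← hw]
  exact sub_eq_zero.1 (congrFun hF j)

end square

/-- **Localized Gerstenhaber–Rothaus theorem.** -/
theorem exists_solution {J U K : Type} [Fintype J] [Fintype U] (W : J → FreeGroup (U ⊕ K))
    (lam : U → J → ℤ) [DecidableEq J]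
    (hlam : ∀ j j', ∑ u, expo (W j) (.inl u) * lam u j' = if j = j' then 1 else 0)
    (a : ℝ → K → unitary ℍ[ℝ]) (ha : ∀ k, Continuous fun t => a t k) (ha0 : a 0 = 1)
    (Z : Set U) (δ : ℝ) (hδ : 0 < δ)
    (hband : ∀ t ∈ Icc (0 : ℝ) 1, ∀ y : U → unitary ℍ[ℝ],
      (∀ j, FreeGroup.lift (Sum.elim y (a t)) (W j) = 1) →
      (∀ z ∈ Z, ‖(y z : ℍ[ℝ]) - 1‖ ≤ δ) → ∀ z ∈ Z, ‖(y z : ℍ[ℝ]) - 1‖ < δ) :
    ∃ y : U → unitary ℍ[ℝ], (∀ j, FreeGroup.lift (Sum.elim y (a 1)) (W j) = 1) ∧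
      ∀ z ∈ Z, ‖(y z : ℍ[ℝ]) - 1‖ < δ := by
  let s : U → FreeGroup (J ⊕ K) := fun u =>
    ((Finset.univ : Finset J).toList.map fun j => FreeGroup.of (.inl j) ^ lam u j).prod
  let σ : FreeGroup (U ⊕ K) →* FreeGroup (J ⊕ K) :=
    FreeGroup.lift (Sum.elim s fun k => FreeGroup.of (.inr k))
  have hσ : ∀ {M : Type} [Group M] (v : J ⊕ K → M) (w : FreeGroup (U ⊕ K)),
      FreeGroup.lift v (σ w) = FreeGroup.lift
        (Sum.elim (fun u => FreeGroup.lift v (s u)) fun k => v (.inr k)) w := by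
    intro M _ v w
    have : (FreeGroup.lift v).comp σ = FreeGroup.lift
        (Sum.elim (fun u => FreeGroup.lift v (s u)) fun k => v (.inr k)) := by
      ext1 x
      rcases x with u | k <;> simp [σ]
    exact DFunLike.congr_fun this w
  obtain ⟨y, hy1, hy2⟩ := exists_solution_square (U := Z) (fun j => σ (W j)) (fun z => s z)
    (by
      intro M _ v hv j
      rw [hσ, lift_eq_prod _ (by exact hv)]
      have h1 : ∀ u, FreeGroup.lift v (s u) = ∏ j', v (.inl j') ^ lam u j' := by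
        intro u
        simp only [s, map_list_prod, List.map_map]
        rw [← Finset.prod_map_toList]
        congr 2
        funext j'
        simp
      simp only [Sum.elim_inl, h1, ← Finset.prod_zpow, ← zpow_mul]
      rw [Finset.prod_comm]
      have h2 : ∀ j', ∏ u, v (.inl j') ^ (lam u j' * expo (W j) (.inl u)) =
          v (.inl j') ^ (if j = j' then 1 else 0 : ℤ) := by
        intro j'
        rw [← hlam]
        simp only [mul_comm (lam _ _)]
        exact (map_sum (zpowersHom M (v (.inl j'))).toAdditiveRight _ _).symm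
      simp [h2, Finset.prod_ite_eq])
    a ha ha0 δ hδ (fun t ht y h1 h2 z => hband t ht
      (fun u => FreeGroup.lift (Sum.elim y (a t)) (s u)) (fun j => by rw [← h1 j, hσ]; rfl)
      (fun z hz => h2 ⟨z, hz⟩) z z.2)
  exact ⟨fun u => FreeGroup.lift (Sum.elim y (a 1)) (s u), fun j => by rw [← hy1 j, hσ]; rfl,
    fun z hz => hy2 ⟨z, hz⟩⟩

end Crest.Agent.Lib.GR
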